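import Mathlib

/-!
# Words on a circle, ties at one time modulo one

`H v h`: `h` is a legal selection at the generic time `v`; `B u g`: the word `g` is below the palettes at
the time `u`.  The label is constant below the palettes of every time which is no tie; ties happen only at
one time modulo one, and there no label of a word is the label of the rotation of a word.
-/

open Set Filter Topology

namespace Vale.Agent.P032.Words6.H172

/-- all selections near `x` have the label `l` -/
def Lb {W L : Type*} (H : ℝ → W → Prop) (lab : W → L) (x : ℝ) (l : L) : Prop :=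
  ∀ᶠ v in 𝓝 x, ∀ g, H v g → lab g = l

theorem tie_false {W L : Type*} {H : ℝ → W → Prop} {rot : W → W}
    (dense : ∀ u, ∃ᶠ v in 𝓝 u, ∃ h, H v h)
    (hrot : ∀ v h, H v h → H (v + 1) (rot h))
    {B : ℝ → W → Prop} (near : ∀ u, ∀ᶠ v in 𝓝 u, ∀ g, H v g → B u g)
    {S : ℝ → Prop} (once : ∀ u u', S u → S u' → ∃ n : ℤ, u' = u + n)
    {lab : W → L} (step : ∀ u, ¬ S u → ∀ g g', B u g → B u g' → lab g = lab g')
    (no : ∀ v h, H v h → lab (rot h) ≠ lab h)
    (tie : ∀ u, S u → ∀ g g', B u g → B u g' → lab (rot g) ≠ lab g') : False := by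
  -- labels off the ties
  have loc : ∀ x, ¬ S x → ∃ l, Lb H lab x l := by
    intro x hx
    obtain ⟨v, ⟨g, hg⟩, hv⟩ := ((dense x).and_eventually (near x)).exists
    refine ⟨lab g, (near x).mono fun w hw g' hg' => ?_⟩
    exact step x hx g' g (hw g' hg') (hv g hg)
  have uniq : ∀ {x l l'}, Lb H lab x l → Lb H lab x l' → l = l' := by
    intro x l l' h1 h2
    obtain ⟨v, ⟨g, hg⟩, h3, h4⟩ := ((dense x).and_eventually (h1.and h2)).exists
    rw [← h3 g hg, h4 g hg]
  have conn : ∀ {s : Set ℝ}, IsPreconnected s → (∀ x ∈ s, ¬ S x) → ∀ {x y l l'}, x ∈ s → y ∈ s →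
      Lb H lab x l → Lb H lab y l' → l = l' := by
    intro s hs hS x y l l' hx hy hl hl'
    have key := hs.induction₂' (fun x y => ∃ l, Lb H lab x l ∧ Lb H lab y l) ?_ ?_ hx hy
    · obtain ⟨m, h1, h2⟩ := key
      rw [uniq hl h1, uniq h2 hl']
    · intro x hx
      obtain ⟨m, hm⟩ := loc x (hS x hx)
      refine mem_nhdsWithin_of_mem_nhds ?_
      filter_upwards [eventually_eventually_nhds.2 hm] with y hy
      exact ⟨⟨m, hm, hy⟩, ⟨m, hy, hm⟩⟩
    · rintro x y w _ _ _ ⟨m, h1, h2⟩ ⟨m', h3, h4⟩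
      exact ⟨m, h1, by rw [uniq h2 h3]; exact h4⟩
  by_cases hex : ∃ u, S u
  · obtain ⟨u, hu⟩ := hex
    have hS : ∀ x ∈ Ioo u (u + 1), ¬ S x := by
      intro x hx hSx
      obtain ⟨n, hn⟩ := once u x hu hSx
      have h1 : (0 : ℝ) < n := by linarith [hx.1]
      have h2 : (n : ℝ) < 1 := by linarith [hx.2]
      have h3 : (0 : ℤ) < n := by exact_mod_cast h1
      have h4 : n < (1 : ℤ) := by exact_mod_cast h2
      omega
    obtain ⟨ε, hε, hev⟩ := Metric.eventually_nhds_iff.1 (near u)
    -- a selection on the right of the tie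
    obtain ⟨v, ⟨a, ha⟩, hv⟩ := ((dense (u + min ε 1 / 2)).and_eventually
      (Metric.ball_mem_nhds (u + min ε 1 / 2) (show 0 < min ε 1 / 2 by positivity))).exists
    -- a selection on the left of the tie
    obtain ⟨w, ⟨b, hb⟩, hw⟩ := ((dense (u - min ε 1 / 2)).and_eventually
      (Metric.ball_mem_nhds (u - min ε 1 / 2) (show 0 < min ε 1 / 2 by positivity))).exists
    have hv : |v - (u + min ε 1 / 2)| < min ε 1 / 2 := by
      rw [← Real.dist_eq]; exact hv
    have hw : |w - (u - min ε 1 / 2)| < min ε 1 / 2 := by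
      rw [← Real.dist_eq]; exact hw
    rw [abs_lt] at hv hw
    have h1 := min_le_left ε 1
    have h2 := min_le_right ε 1
    have v1 : u < v := by linarith [hv.1]
    have v2 : v < u + min ε 1 := by linarith [hv.2]
    have w1 : u - min ε 1 < w := by linarith [hw.1]
    have w2 : w < u := by linarith [hw.2]
    have hav : B u a := hev (by rw [Real.dist_eq, abs_lt]; constructor <;> linarith) a ha
    have hbw : B u b := hev (by rw [Real.dist_eq, abs_lt]; constructor <;> linarith) b hb
    have iv : v ∈ Ioo u (u + 1) := ⟨v1, by linarith⟩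
    have iw : w + 1 ∈ Ioo u (u + 1) := ⟨by linarith, by linarith⟩
    obtain ⟨l, hl⟩ := loc v (hS v iv)
    obtain ⟨l', hl'⟩ := loc (w + 1) (hS _ iw)
    have e1 := hl.self_of_nhds a ha
    have e2 := hl'.self_of_nhds (rot b) (hrot w b hb)
    exact tie u hu b a hbw hav (by rw [e1, e2, conn isPreconnected_Ioo hS iv iw hl hl'])
  · have hS : ∀ x ∈ (univ : Set ℝ), ¬ S x := fun x _ hx => hex ⟨x, hx⟩
    obtain ⟨v, h, hv⟩ := (dense 0).exists
    obtain ⟨l, hl⟩ := loc v (hS v (mem_univ _))
    obtain ⟨l', hl'⟩ := loc (v + 1) (hS _ (mem_univ _))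
    have e1 := hl.self_of_nhds h hv
    have e2 := hl'.self_of_nhds (rot h) (hrot v h hv)
    exact no v h hv (by
      rw [e1, e2, conn isPreconnected_univ hS (mem_univ _) (mem_univ _) hl hl'])

end Vale.Agent.P032.Words6.H172
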