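import Vale.Agent.P032.Words6.H503.Tie
import Vale.Agent.P032.Words6.H172.OneTie
import Vale.Agent.P032.S5.H410.RStrong

/-!
# The modes of the complementary classes on the circle of a six coloured point

`rs_of`: over the hypotheses of `NoSixA` every class `{X, Xᶜ}` satisfies the complement rule;
`Mode T z X m`: `m = 0`: `X` is no palette of the circle, `m = 1`: `Xᶜ` is none, `m = 2`: `X` and `Xᶜ` are
palettes only of two opposite points; `exists_modes`: a mode for every class.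
-/

open Set Filter Topology Metric

noncomputable section

namespace Vale.Agent.P032.Words6.H172

open Vale.Agent.P032.Six Vale.Agent.P032.S5.H767 Vale.Agent.P032.Words6.H503

variable {U : Fin 6 → Set ℂ} {T : ℂ → Set (Fin 6)} {z : ℂ} {X : Set (Fin 6)}

/-- **The complement rule** over the hypotheses of `NoSixA`. -/
theorem rs_of (h : Irr U T)
    (hmin : ∀ z, 4 ≤ (T z).ncard → ∀ s, s ⊆ T z → s ≠ T z →
      ¬ ∀ᶠ w in 𝓝 z, ∃ i ∈ s, w ∈ U i ∨ (w ∈ XX U ∧ i ∈ Pal U w))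
    (hU : ∀ z v, dist z v = 1 → 4 ≤ (T v).ncard →
      (5 ≤ (T z).ncard ∨ ∃ a b c d, DPt T z a b c d) → False)
    (h5 : ∀ z, (T z).ncard ≠ 5) (h6 : (T z).ncard = 6) (X : Set (Fin 6)) (hX : X.ncard = 3) :
    RS T z X :=
  fun _ _ hv hq hTv hTq => S5.H410.r_strong h hmin hU h5 h6 hX hv hq hTv hTq

/-- the mode `m` of the class `{X, Xᶜ}` -/
def Mode (T : ℂ → Set (Fin 6)) (z : ℂ) (X : Set (Fin 6)) (m : Fin 3) : Prop :=
  (m = 0 → ∀ q, dist q z = 1 → T q ≠ X) ∧ (m = 1 → ∀ q, dist q z = 1 → T q ≠ Xᶜ) ∧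
    (m = 2 → RS T z X ∧ ∃ y, dist y z = 1 ∧ (∀ q, dist q z = 1 → (T q = X ↔ q = y)) ∧
      ∀ q, dist q z = 1 → (T q = Xᶜ ↔ q = 2 * z - y))

theorem exists_mode (hR : RS T z X) : ∃ m, Mode T z X m := by
  rcases modes hR with h1 | h1 | h1
  · exact ⟨0, fun _ => h1, fun h => absurd h (by decide), fun h => absurd h (by decide)⟩
  · exact ⟨1, fun h => absurd h (by decide), fun _ => h1, fun h => absurd h (by decide)⟩
  · exact ⟨2, fun h => absurd h (by decide), fun h => absurd h (by decide), fun _ => ⟨hR, h1⟩⟩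

/-- **A mode for every class.** -/
theorem exists_modes (hR : ∀ X : Set (Fin 6), X.ncard = 3 → RS T z X) :
    ∃ μ : Set (Fin 6) → Fin 3, ∀ X, X.ncard = 3 → Mode T z X (μ X) := by
  have h1 : ∀ X : Set (Fin 6), ∃ m, X.ncard = 3 → Mode T z X m := by
    intro X
    by_cases hX : X.ncard = 3
    · obtain ⟨m, hm⟩ := exists_mode (hR X hX)
      exact ⟨m, fun _ => hm⟩
    · exact ⟨0, fun h => absurd h hX⟩
  choose μ hμ using h1
  exact ⟨μ, hμ⟩

namespace Mode

theorem ne0 (M : Mode T z X 0) {q : ℂ} (hq : dist q z = 1) : T q ≠ X := M.1 rfl q hq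

theorem ne1 (M : Mode T z X 1) {q : ℂ} (hq : dist q z = 1) : T q ≠ Xᶜ := M.2.1 rfl q hq

/-- in the third mode `X` and `Xᶜ` are opposite -/
theorem opp (M : Mode T z X 2) (u : ℝ) : T (pt z u) = X ↔ T (pt z (u + 3)) = Xᶜ := by
  obtain ⟨-, y, -, y1, y2⟩ := M.2.2 rfl
  rw [y1 _ (dist_pt z u), y2 _ (dist_pt z (u + 3)), pt_three]
  constructor
  · intro h; rw [h]
  · intro h; linear_combination -h

theorem opp' (M : Mode T z X 2) (u : ℝ) : T (pt z u) = Xᶜ ↔ T (pt z (u + 3)) = X := by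
  rw [M.opp (u + 3), show u + 3 + 3 = u + 6 by ring, pt_six]

theorem fin3 (z : ℂ) (u : ℝ) (k : Fin 6) :
    pt z (u + ((k + 3).val : ℝ)) = pt z (u + (k.val : ℝ) + 3) := by
  have h : (k + 3).val = k.val + 3 ∨ (k + 3).val + 6 = k.val + 3 := by
    revert k; decide
  rcases h with h | h
  · rw [h]; push_cast; rw [add_assoc]
  · rw [← pt_six z (u + ((k + 3).val : ℝ))]
    have h1 : ((k + 3).val : ℝ) + 6 = (k.val : ℝ) + 3 := by exact_mod_cast h
    rw [add_assoc, h1, ← add_assoc]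

/-- the six positions: `X` at `k` means `Xᶜ` at `k + 3` -/
theorem opp_fin (M : Mode T z X 2) (u : ℝ) (k : Fin 6)
    (h : T (pt z (u + (k.val : ℝ))) = X ∨ T (pt z (u + (k.val : ℝ))) = Xᶜ) :
    T (pt z (u + ((k + 3).val : ℝ))) = (T (pt z (u + (k.val : ℝ))))ᶜ := by
  rw [fin3]
  rcases h with h | h
  · rw [h]; exact (M.opp _).1 h
  · rw [h, compl_compl]; exact (M.opp' _).1 h

/-- an occurrence of the class is a tie -/
theorem tie (M : Mode T z X 2) {u : ℝ} {k : ℤ}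
    (h : T (pt z (u + k)) = X ∨ T (pt z (u + k)) = Xᶜ) : Tie T z X u :=
  tie_of (M.2.2 rfl).2 h

theorem tie_fin (M : Mode T z X 2) {u : ℝ} {k : Fin 6}
    (h : T (pt z (u + (k.val : ℝ))) = X ∨ T (pt z (u + (k.val : ℝ))) = Xᶜ) : Tie T z X u :=
  M.tie (k := (k.val : ℤ)) (by push_cast; exact h)

/-- the class occurs at one time modulo one only -/
theorem once (M : Mode T z X 2) {u v : ℝ} (hu : Tie T z X u) (hv : Tie T z X v) :
    ∃ n : ℤ, v = u + n :=
  tie_int (M.2.2 rfl).1 hu hv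

/-- the class occurs at one time modulo one only, the six positions -/
theorem once_fin (M : Mode T z X 2) {u v : ℝ} {k l : Fin 6}
    (hu : T (pt z (u + (k.val : ℝ))) = X ∨ T (pt z (u + (k.val : ℝ))) = Xᶜ)
    (hv : T (pt z (v + (l.val : ℝ))) = X ∨ T (pt z (v + (l.val : ℝ))) = Xᶜ) :
    ∃ n : ℤ, v = u + n :=
  M.once (M.tie_fin hu) (M.tie_fin hv)

/-- at one time the triple `X` occurs at one of the six positions only -/
theorem uniq_fin (M : Mode T z X 2) {u : ℝ} {k l : Fin 6}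
    (hk : T (pt z (u + (k.val : ℝ))) = X) (hl : T (pt z (u + (l.val : ℝ))) = X) : k = l := by
  obtain ⟨-, y, -, y1, -⟩ := M.2.2 rfl
  have h1 := (y1 _ (dist_pt z _)).1 hk
  have h2 := (y1 _ (dist_pt z _)).1 hl
  obtain ⟨n, hn⟩ := pt_eq_int (h1.trans h2.symm)
  have h3 : (l.val : ℤ) = k.val + 6 * n := by
    have : (l.val : ℝ) = k.val + 6 * n := by linarith
    exact_mod_cast this
  have h4 := k.isLt
  have h5 := l.isLt
  exact Fin.ext (by omega)

end Mode

end Vale.Agent.P032.Words6.H172
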