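import Vale.Agent.P032.Words6.H46.EncD
import Vale.Agent.P032.Words6.H503.Tie

/-!
# Modes of all classes by their masks; the decision tree of the prism

`exists_muP`: for a circle with the complement rule there is a mode `μ c` for every mask `c` (0: the class
with mask `c` is no palette, 1: its complement is none, 2: both only at two opposite points).
`cover35`: every assignment of modes fits one of the 33 leaves of the prism.
-/

open Set

noncomputable section

namespace Vale.Agent.P032.Words6.H172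

open Vale.Agent.P032.Words6.H46 Vale.Agent.P032.Words6.H503

theorem mem_iff_code {f : Fin 6 → ℕ} (hinj : Function.Injective f) (hlt : ∀ i, f i < 6)
    (s : Set (Fin 6)) (i : Fin 6) : i ∈ s ↔ (code f s).testBit (f i) = true := by
  unfold code
  rw [Nat.testBit_ofBits_lt _ _ (hlt i)]
  simp only [decide_eq_true_eq]
  constructor
  · intro hi; exact ⟨i, hi, rfl⟩
  · rintro ⟨j, hj, e⟩
    rwa [← hinj e]

theorem code_inj' {f : Fin 6 → ℕ} (hinj : Function.Injective f) (hlt : ∀ i, f i < 6)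
    {s t : Set (Fin 6)} (h : code f s = code f t) : s = t := by
  ext i
  rw [mem_iff_code hinj hlt, mem_iff_code hinj hlt, h]

/-- **A mode for every mask.** -/
theorem exists_muP {T : ℂ → Set (Fin 6)} {z : ℂ}
    (hRS : ∀ X : Set (Fin 6), X.ncard = 3 → RS T z X) {f : Fin 6 → ℕ}
    (hinj : Function.Injective f) (hlt : ∀ i, f i < 6) :
    ∃ μ : ℕ → Fin 3, ∀ c : ℕ, ∀ X : Set (Fin 6), X.ncard = 3 → code f X = c →
      if μ c = 0 then (∀ q, dist q z = 1 → T q ≠ X)
      else if μ c = 1 then (∀ q, dist q z = 1 → T q ≠ Xᶜ)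
      else (∃ y, dist y z = 1 ∧ (∀ q, dist q z = 1 → (T q = X ↔ q = y)) ∧
        ∀ q, dist q z = 1 → (T q = Xᶜ ↔ q = 2 * z - y)) := by
  have key : ∀ c : ℕ, ∃ m : Fin 3, ∀ X : Set (Fin 6), X.ncard = 3 → code f X = c →
      if m = 0 then (∀ q, dist q z = 1 → T q ≠ X)
      else if m = 1 then (∀ q, dist q z = 1 → T q ≠ Xᶜ)
      else (∃ y, dist y z = 1 ∧ (∀ q, dist q z = 1 → (T q = X ↔ q = y)) ∧
        ∀ q, dist q z = 1 → (T q = Xᶜ ↔ q = 2 * z - y)) := by
    intro c
    by_cases hc : ∃ X : Set (Fin 6), X.ncard = 3 ∧ code f X = c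
    · obtain ⟨X, hX, rfl⟩ := hc
      rcases modes (hRS X hX) with h1 | h1 | h1
      · refine ⟨0, fun Y _ hYc => ?_⟩
        rw [code_inj' hinj hlt hYc, if_pos rfl]
        exact h1
      · refine ⟨1, fun Y _ hYc => ?_⟩
        rw [code_inj' hinj hlt hYc, if_neg (by decide), if_pos rfl]
        exact h1
      · refine ⟨2, fun Y _ hYc => ?_⟩
        rw [code_inj' hinj hlt hYc, if_neg (by decide), if_neg (by decide)]
        exact h1
    · exact ⟨0, fun X hX hXc => absurd ⟨X, hX, hXc⟩ hc⟩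
  choose μ hμ using key
  exact ⟨μ, hμ⟩

/-- the leaves of the prism in the order `C35_1 .. C35_33` -/
def leaves35 : List (List (ℕ × Fin 3)) :=
  [[(7, 0), (11, 0), (26, 0)],
   [(7, 0), (11, 0), (26, 1)],
   [(7, 0), (11, 0), (26, 2)],
   [(7, 0), (11, 1), (22, 0)],
   [(7, 0), (11, 1), (22, 1), (26, 0), (13, 0), (19, 0)],
   [(7, 0), (11, 1), (22, 1), (26, 0), (13, 0), (19, 1)],
   [(7, 0), (11, 1), (22, 1), (26, 0), (13, 0), (19, 2)],
   [(7, 0), (11, 1), (22, 1), (26, 0), (13, 1), (25, 0)],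
   [(7, 0), (11, 1), (22, 1), (26, 0), (13, 1), (25, 1)],
   [(7, 0), (11, 1), (22, 1), (26, 0), (13, 1), (25, 2)],
   [(7, 0), (11, 1), (22, 1), (26, 0), (13, 2)],
   [(7, 0), (11, 1), (22, 1), (26, 1)],
   [(7, 0), (11, 1), (22, 1), (26, 2)],
   [(7, 0), (11, 1), (22, 2)],
   [(7, 0), (11, 2)],
   [(7, 1), (11, 0), (26, 0)],
   [(7, 1), (11, 0), (26, 1), (22, 0), (13, 0), (19, 0)],
   [(7, 1), (11, 0), (26, 1), (22, 0), (13, 0), (19, 1)],
   [(7, 1), (11, 0), (26, 1), (22, 0), (13, 0), (19, 2)],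
   [(7, 1), (11, 0), (26, 1), (22, 0), (13, 1), (25, 0)],
   [(7, 1), (11, 0), (26, 1), (22, 0), (13, 1), (25, 1)],
   [(7, 1), (11, 0), (26, 1), (22, 0), (13, 1), (25, 2)],
   [(7, 1), (11, 0), (26, 1), (22, 0), (13, 2)],
   [(7, 1), (11, 0), (26, 1), (22, 1)],
   [(7, 1), (11, 0), (26, 1), (22, 2)],
   [(7, 1), (11, 0), (26, 2)],
   [(7, 1), (11, 1), (22, 0)],
   [(7, 1), (11, 1), (22, 1)],
   [(7, 1), (11, 1), (22, 2)],
   [(7, 1), (11, 2)],
   [(7, 2), (11, 0)],
   [(7, 2), (11, 1)],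
   [(7, 2), (11, 2)]]

/-- the values at the seven classes -/
def at7 (a7 a11 a13 a19 a22 a25 a26 : Fin 3) (n : ℕ) : Fin 3 :=
  if n = 7 then a7 else if n = 11 then a11 else if n = 13 then a13 else if n = 19 then a19
  else if n = 22 then a22 else if n = 25 then a25 else a26

theorem cover35_aux : ∀ a7 a11 a13 a19 a22 a25 a26 : Fin 3,
    (leaves35.any fun l => l.all fun p => decide (at7 a7 a11 a13 a19 a22 a25 a26 p.1 = p.2)) =
      true := by decide +kernel

theorem keys35 : ∀ l ∈ leaves35, ∀ p ∈ l, p.1 ∈ [7, 11, 13, 19, 22, 25, 26] := by decide +kernel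

/-- **Every assignment of modes fits a leaf of the prism.** -/
theorem cover35 (μ : ℕ → Fin 3) : ∃ l ∈ leaves35, ∀ p ∈ l, μ p.1 = p.2 := by
  have h1 := cover35_aux (μ 7) (μ 11) (μ 13) (μ 19) (μ 22) (μ 25) (μ 26)
  obtain ⟨l, hl, h2⟩ := List.any_eq_true.1 h1
  refine ⟨l, hl, fun p hp => ?_⟩
  have h3 := of_decide_eq_true (List.all_eq_true.1 h2 p hp)
  rw [← h3]
  have h4 := keys35 l hl p hp
  simp only [List.mem_cons, List.not_mem_nil, or_false] at h4
  unfold at7
  rcases h4 with h | h | h | h | h | h | h <;> simp [h]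

end Vale.Agent.P032.Words6.H172
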